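import Vale.Agent.P091.T.H284.AccD

/-! # P091, row T8: choice of the parameters (helper206) -/

set_option autoImplicit false

open Real Filter Topology Finset

namespace Vale.Agent.P091.T8.H206

open Vale.Agent.P091.T.H284 (ev_poly ev_l_exp ev_l_log_pow lD_tendsto)

theorem abs_lin {C1 D : ℝ} (hD : 1 ≤ D) : |C1 * D + 10| ≤ (|C1| + 10) * D := by
  refine (abs_add_le _ _).trans ?_
  rw [abs_mul, abs_of_pos (by linarith : 0 < D), abs_of_pos (by norm_num : (0:ℝ) < 10)]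
  nlinarith

theorem term1 {C2 C1 D l : ℝ} (hD : 1 ≤ D) (hl : 16 * |C2| * (|C1| + 10) + 1 ≤ l) :
    C2 * ((l ^ 30)⁻¹ * (C1 * D + 10)) ≤ D / (16 * l ^ 20) := by
  have p2 : 0 ≤ |C2| := abs_nonneg _
  have p1 : 0 ≤ |C1| := abs_nonneg _
  have hl1 : 1 ≤ l := by
    have : 0 ≤ 16 * |C2| * (|C1| + 10) := by positivity
    linarith
  have hl0 : 0 < l := by linarith
  have a : C2 * ((l ^ 30)⁻¹ * (C1 * D + 10)) ≤ |C2| * ((l ^ 30)⁻¹ * ((|C1| + 10) * D)) := by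
    calc C2 * ((l ^ 30)⁻¹ * (C1 * D + 10)) ≤ |C2 * ((l ^ 30)⁻¹ * (C1 * D + 10))| := le_abs_self _
      _ = |C2| * ((l ^ 30)⁻¹ * |C1 * D + 10|) := by
          rw [abs_mul, abs_mul, abs_of_pos (by positivity : 0 < (l ^ 30)⁻¹)]
      _ ≤ _ := by
          have := abs_lin (C1 := C1) hD
          gcongr
  refine a.trans ?_
  rw [le_div_iff₀ (by positivity)]
  have e : |C2| * ((l ^ 30)⁻¹ * ((|C1| + 10) * D)) * (16 * l ^ 20)
      = (16 * |C2| * (|C1| + 10)) * (l ^ 10)⁻¹ * D := by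
    have : l ^ 30 = l ^ 20 * l ^ 10 := by rw [← pow_add]
    rw [this]; field_simp
  rw [e]
  have h10 : l ≤ l ^ 10 := le_self_pow₀ hl1 (by norm_num)
  have h : (16 * |C2| * (|C1| + 10)) * (l ^ 10)⁻¹ ≤ 1 := by
    rw [← div_eq_mul_inv, div_le_one (by positivity)]
    linarith
  calc _ ≤ 1 * D := mul_le_mul_of_nonneg_right h (by linarith)
    _ = D := one_mul D

theorem term2 {C2 D l : ℝ} (hl1 : 1 ≤ l) (h : 16 * 11 * |C2| * l ^ 30 ≤ D / l ^ 20) :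
    C2 * (10 + l ^ 30) ≤ D / (16 * l ^ 20) := by
  have hl0 : 0 < l := by linarith
  have h30 : 1 ≤ l ^ 30 := one_le_pow₀ hl1
  have p2 : 0 ≤ |C2| := abs_nonneg _
  have a : C2 * (10 + l ^ 30) ≤ |C2| * (11 * l ^ 30) := by
    calc C2 * (10 + l ^ 30) ≤ |C2| * (10 + l ^ 30) := by gcongr; exact le_abs_self C2
      _ ≤ _ := by gcongr; linarith
  refine a.trans ?_
  have e : D / (16 * l ^ 20) = (D / l ^ 20) / 16 := by field_simp
  rw [e]
  linarith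

theorem term3 {C D l k E : ℝ} (hl1 : 1 ≤ l) (hD : 1 ≤ D) (hlD : l ^ 30 ≤ D) (hk0 : 0 < k)
    (hk2 : k ≤ 2 * D ^ 10) (hE0 : 0 ≤ E) (hED : E ≤ D)
    (h : 2 * |C| * 27 * 200 * (D ^ 50 * Real.exp (-(D / l ^ 2))) ≤ 1) :
    2 * Real.exp (-(D / l ^ 2)) * (C * (k + Real.log (l ^ 30)) ^ 3 * (2 * D + E + k
      * Real.log (20 * (k + 1)))) ≤ 1 := by
  have hl0 : 0 < l := by linarith
  have hDp : 1 ≤ D ^ 10 := one_le_pow₀ hD
  have pc : 0 ≤ |C| := abs_nonneg _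
  have hlogl : Real.log (l ^ 30) ≤ D := by
    have := Real.log_le_sub_one_of_pos (by positivity : 0 < l ^ 30)
    linarith
  have hlogl0 : 0 ≤ Real.log (l ^ 30) := Real.log_nonneg (one_le_pow₀ hl1)
  have hDD : D ≤ D ^ 10 := le_self_pow₀ hD (by norm_num)
  have b0 : k + Real.log (l ^ 30) ≤ 3 * D ^ 10 := by linarith
  have b1 : (k + Real.log (l ^ 30)) ^ 3 ≤ 27 * D ^ 30 := by
    calc (k + Real.log (l ^ 30)) ^ 3 ≤ (3 * D ^ 10) ^ 3 := pow_le_pow_left₀ (by positivity) b0 3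
      _ = 27 * D ^ 30 := by ring
  have b2 : Real.log (20 * (k + 1)) ≤ 60 * D ^ 10 := by
    have := Real.log_le_sub_one_of_pos (by positivity : 0 < 20 * (k + 1))
    linarith
  have b20 : 0 ≤ Real.log (20 * (k + 1)) := Real.log_nonneg (by linarith)
  have b3 : 2 * D + E + k * Real.log (20 * (k + 1)) ≤ 200 * D ^ 20 := by
    have c : k * Real.log (20 * (k + 1)) ≤ (2 * D ^ 10) * (60 * D ^ 10) :=
      mul_le_mul hk2 b2 b20 (by positivity)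
    have d : D ≤ D ^ 20 := le_self_pow₀ hD (by norm_num)
    have e : (2 * D ^ 10) * (60 * D ^ 10) = 120 * D ^ 20 := by ring
    linarith
  have b30 : 0 ≤ 2 * D + E + k * Real.log (20 * (k + 1)) := by positivity
  have q0 : 0 ≤ (k + Real.log (l ^ 30)) ^ 3 := by positivity
  have key : C * (k + Real.log (l ^ 30)) ^ 3 * (2 * D + E + k * Real.log (20 * (k + 1)))
      ≤ |C| * (27 * D ^ 30) * (200 * D ^ 20) := by
    have s1 : C * (k + Real.log (l ^ 30)) ^ 3 ≤ |C| * (27 * D ^ 30) :=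
      (mul_le_mul_of_nonneg_right (le_abs_self C) q0).trans (mul_le_mul_of_nonneg_left b1 pc)
    exact mul_le_mul s1 b3 b30 (by positivity)
  calc _ ≤ 2 * Real.exp (-(D / l ^ 2)) * (|C| * (27 * D ^ 30) * (200 * D ^ 20)) :=
        mul_le_mul_of_nonneg_left key (by positivity)
    _ = 2 * |C| * 27 * 200 * (D ^ 50 * Real.exp (-(D / l ^ 2))) := by ring
    _ ≤ 1 := h

theorem term4 {C C3 C1 D l k E : ℝ} (hl1 : 1 ≤ l) (hD : 1 ≤ D) (hlD : l ^ 90 ≤ D)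
    (hk1 : D ^ 10 ≤ k) (hE0 : 0 ≤ E) (hED : E ≤ D)
    (h : |C3| * (|C1| + 10) * |C| * 6 ≤ D) :
    C3 * (C1 * D + 10) * (C * (2 * D + E) / (((l ^ 30)⁻¹) ^ 3 * k)) ≤ 1 := by
  have hl0 : 0 < l := by linarith
  have hD0 : 0 < D := by linarith
  have hk0 : 0 < k := lt_of_lt_of_le (by positivity) hk1
  have e : C3 * (C1 * D + 10) * (C * (2 * D + E) / (((l ^ 30)⁻¹) ^ 3 * k))
      = C3 * (C1 * D + 10) * (C * (2 * D + E)) * (l ^ 90 / k) := by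
    have : ((l ^ 30)⁻¹) ^ 3 = (l ^ 90)⁻¹ := by rw [inv_pow, ← pow_mul]
    rw [this]; field_simp
  rw [e]
  have p3 : 0 ≤ |C3| := abs_nonneg _
  have p1 : 0 ≤ |C1| := abs_nonneg _
  have pc : 0 ≤ |C| := abs_nonneg _
  have x1 := abs_lin (C1 := C1) hD
  have x2 : |2 * D + E| ≤ 3 * D := by rw [abs_of_nonneg (by positivity)]; linarith
  have a : C3 * (C1 * D + 10) * (C * (2 * D + E)) ≤ |C3| * ((|C1| + 10) * D) * (|C| * (3 * D)) := by
    calc _ ≤ |C3 * (C1 * D + 10) * (C * (2 * D + E))| := le_abs_self _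
      _ = |C3| * |C1 * D + 10| * (|C| * |2 * D + E|) := by rw [abs_mul, abs_mul, abs_mul]
      _ ≤ _ := mul_le_mul (mul_le_mul_of_nonneg_left x1 p3) (mul_le_mul_of_nonneg_left x2 pc)
          (by positivity) (by positivity)
  have b : l ^ 90 / k ≤ D / D ^ 10 := div_le_div₀ hD0.le hlD (by positivity) hk1
  have c : |C3| * ((|C1| + 10) * D) * (|C| * (3 * D)) ≤ D * D ^ 2 := by
    have : |C3| * ((|C1| + 10) * D) * (|C| * (3 * D)) = (|C3| * (|C1| + 10) * |C| * 3) * D ^ 2 := by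
      ring
    rw [this]
    have q : 0 ≤ |C3| * (|C1| + 10) * |C| := by positivity
    exact mul_le_mul_of_nonneg_right (by linarith) (by positivity)
  calc _ ≤ |C3| * ((|C1| + 10) * D) * (|C| * (3 * D)) * (l ^ 90 / k) :=
        mul_le_mul_of_nonneg_right a (by positivity)
    _ ≤ D * D ^ 2 * (D / D ^ 10) := mul_le_mul c b (by positivity) (by positivity)
    _ = (D ^ 6)⁻¹ := by field_simp
    _ ≤ 1 := inv_le_one_of_one_le₀ (one_le_pow₀ hD)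

theorem arith (C C2 C3 C1 : ℝ) : ∀ᶠ D : ℝ in atTop, ∀ E : ℝ, 0 ≤ E → E ≤ D →
    C2 * (((T.ll D : ℝ) ^ 30)⁻¹ * (C1 * D + 10) + 10 + (T.ll D : ℝ) ^ 30)
      + 2 * Real.exp (-(D / (T.ll D : ℝ) ^ 2)) * (C * (((⌈D ^ 10⌉₊ : ℕ) : ℝ)
          + Real.log ((T.ll D : ℝ) ^ 30)) ^ 3 * (2 * D + E + ((⌈D ^ 10⌉₊ : ℕ) : ℝ)
            * Real.log (20 * (((⌈D ^ 10⌉₊ : ℕ) : ℝ) + 1))))
      + C3 * (C1 * D + 10) * (C * (2 * D + E) / ((((T.ll D : ℝ) ^ 30)⁻¹) ^ 3 * ((⌈D ^ 10⌉₊ : ℕ) : ℝ)))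
      ≤ D / (4 * (T.ll D : ℝ) ^ 20) := by
  filter_upwards [lD_tendsto.eventually_ge_atTop (16 * |C2| * (|C1| + 10) + 1),
    ev_poly 30 20 (16 * 11 * |C2|),
    ev_l_exp 50 2 (2 * |C| * 27 * 200) 1 one_pos, ev_l_log_pow 90 0 1 1 one_pos,
    ev_poly 0 20 16, ev_l_log_pow 0 0 (|C3| * (|C1| + 10) * |C| * 6) 1 one_pos,
    eventually_ge_atTop (1:ℝ), ev_l_log_pow 30 0 1 1 one_pos, lD_tendsto.eventually_ge_atTop 1]
    with D h1 h2 h3 h4 h5 h6 hD h7 hl1 E hE0 hED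
  set l : ℝ := (T.ll D : ℝ) with hl
  simp only [pow_zero, mul_one, Real.rpow_one, one_mul] at h3 h4 h5 h6 h7
  have hl0 : 0 < l := by linarith
  have hk1 : D ^ 10 ≤ ((⌈D ^ 10⌉₊ : ℕ) : ℝ) := Nat.le_ceil _
  have hk2 : ((⌈D ^ 10⌉₊ : ℕ) : ℝ) ≤ 2 * D ^ 10 := by
    have := Nat.ceil_lt_add_one (a := D ^ 10) (by positivity)
    have h1 : 1 ≤ D ^ 10 := one_le_pow₀ hD
    linarith
  set k : ℝ := ((⌈D ^ 10⌉₊ : ℕ) : ℝ) with hk
  have hk0 : 0 < k := lt_of_lt_of_le (by positivity) hk1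
  have t5 : 1 ≤ D / (16 * l ^ 20) := by
    rw [le_div_iff₀ (by positivity)] at h5 ⊢
    linarith
  have t1 := term1 (C2 := C2) (C1 := C1) hD h1
  have t2 := term2 (C2 := C2) hl1 h2
  have t3 := (term3 (C := C) hl1 hD h7 hk0 hk2 hE0 hED h3).trans t5
  have t4 := (term4 (C := C) (C3 := C3) (C1 := C1) hl1 hD h4 hk1 hE0 hED h6).trans t5
  have e1 : D / (4 * l ^ 20) = D / (16 * l ^ 20) + D / (16 * l ^ 20) + D / (16 * l ^ 20)
      + D / (16 * l ^ 20) := by field_simp; ring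
  rw [e1]
  have e2 : C2 * ((l ^ 30)⁻¹ * (C1 * D + 10) + 10 + l ^ 30) = C2 * ((l ^ 30)⁻¹ * (C1 * D + 10))
    + C2 * (10 + l ^ 30) := by ring
  rw [e2]
  linarith

end Vale.Agent.P091.T8.H206
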